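import Vale.Agent.P134.Loc

open Set Filter Topology InnerProductSpace
open scoped InnerProductSpace RealInnerProductSpace Laplacian

namespace Vale.Agent.P134

variable {E : Type*} [NormedAddCommGroup E] [InnerProductSpace ℝ E] [FiniteDimensional ℝ E]

section
variable {u : E → ℝ} {e : E} (hu : ContDiff ℝ 2 u)
include hu

theorem contDiffAt_V {x : E} (hx : fderiv ℝ u x e ≠ 0) : ContDiffAt ℝ 1 (V u e) x := by
  have h1 : ContDiffAt ℝ 1 (fun x => fderiv ℝ u x e) x :=
    ((contDiff_fd hu).clm_apply contDiff_const).contDiffAt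
  have h2 : ContDiffAt ℝ 1 (U u) x := by
    refine ContDiff.contDiffAt (ContDiff.sum fun i _ => ?_)
    exact ((contDiff_fd hu).clm_apply contDiff_const).smul contDiff_const
  exact (h1.inv hx).smul h2

theorem inner_dV_loc {x : E} (hx : fderiv ℝ u x e ≠ 0) (v w : E) :
    ⟪fderiv ℝ (V u e) x v, w⟫ =
    -((fderiv ℝ u x e) ^ 2)⁻¹ * fderiv ℝ (fderiv ℝ u) x v e * fderiv ℝ u x w +
      (fderiv ℝ u x e)⁻¹ * fderiv ℝ (fderiv ℝ u) x v w := by
  have hV : HasFDerivAt (V u e) (fderiv ℝ (V u e) x) x :=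
    ((contDiffAt_V hu hx).differentiableAt (by norm_num)).hasFDerivAt
  have hℓ : HasDerivAt (fun t : ℝ => x + t • v) v 0 := by
    simpa using ((hasDerivAt_id (0 : ℝ)).smul_const v).const_add x
  have h0 : x + (0 : ℝ) • v = x := by simp
  have h1 : HasDerivAt (fun t : ℝ => V u e (x + t • v)) (fderiv ℝ (V u e) x v) 0 := by
    have := HasFDerivAt.comp_hasDerivAt (x := (0 : ℝ)) (f := fun t : ℝ => x + t • v)
      (l := V u e) (l' := fderiv ℝ (V u e) x) (by rw [h0]; exact hV) hℓ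
    exact this
  have h2 : HasDerivAt (fun t : ℝ => ⟪V u e (x + t • v), w⟫) ⟪fderiv ℝ (V u e) x v, w⟫ 0 := by
    have := h1.inner ℝ (hasDerivAt_const (0 : ℝ) w)
    simpa using this
  have hfd : ∀ z : E, HasDerivAt (fun t : ℝ => fderiv ℝ u (x + t • v) z)
      (fderiv ℝ (fderiv ℝ u) x v z) 0 := by
    intro z
    have h3 := HasFDerivAt.comp_hasDerivAt (x := (0 : ℝ)) (f := fun t : ℝ => x + t • v)
      (l := fderiv ℝ u) (l' := fderiv ℝ (fderiv ℝ u) x) (by rw [h0]; exact hasH hu x) hℓ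
    have h4 := h3.clm_apply (hasDerivAt_const (0 : ℝ) z)
    simpa using h4
  have h5 := ((hfd e).inv (by rw [h0]; exact hx)).mul (hfd w)
  have h6 : (fun t : ℝ => ⟪V u e (x + t • v), w⟫) =
      fun t : ℝ => (fderiv ℝ u (x + t • v) e)⁻¹ * fderiv ℝ u (x + t • v) w := by
    funext t
    rw [inner_V]
  rw [h6] at h2
  have h7 := h2.unique h5
  rw [h7, h0]
  simp only [Pi.inv_apply, h0]
  ring

variable {S : Set E} (hSe : ∀ x ∈ S, ∀ s : ℝ, x + s • e ∈ S)
  (hne : ∀ x ∈ S, fderiv ℝ u x e ≠ 0) (hinv : ∀ x ∈ S, ∀ s : ℝ, V u e (x + s • e) = V u e x)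
include hSe hne hinv

theorem K1_loc {x : E} (hx : x ∈ S) (w : E) : fderiv ℝ (fderiv ℝ u) x e w =
    fderiv ℝ (fderiv ℝ u) x e e * ⟪V u e x, w⟫ := by
  have h1 := prof2 (e := e) hu x w 0
  have h2 := (prof2 (e := e) hu x e 0).mul_const ⟪V u e x, w⟫
  have h3 : (fun s : ℝ => fderiv ℝ u (x + s • e) w) =
      fun s : ℝ => fderiv ℝ u (x + s • e) e * ⟪V u e x, w⟫ := by
    funext s
    rw [← hinv x hx s, inner_V, mul_inv_cancel_left₀ (hne _ (hSe x hx s))]
  rw [h3] at h1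
  have h4 := h1.unique h2
  simpa using h4

theorem inner_dV'_loc {x : E} (hx : x ∈ S) (v w : E) : ⟪fderiv ℝ (V u e) x v, w⟫ =
    (fderiv ℝ u x e)⁻¹ * (fderiv ℝ (fderiv ℝ u) x v w -
      fderiv ℝ (fderiv ℝ u) x e e * (⟪V u e x, v⟫ * ⟪V u e x, w⟫)) := by
  rw [inner_dV_loc hu (hne x hx), symmH hu x v e, K1_loc hu hSe hne hinv hx v]
  rw [inner_V u e x w]
  have := hne x hx
  field_simp
  ring

theorem lap_loc {x : E} (hx : x ∈ S) : Δ u x =
    fderiv ℝ u x e * (∑ i, ⟪fderiv ℝ (V u e) x (stdOrthonormalBasis ℝ E i),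
      stdOrthonormalBasis ℝ E i⟫) +
      fderiv ℝ (fderiv ℝ u) x e e * ‖V u e x‖ ^ 2 := by
  rw [laplacian_eq_iteratedFDeriv_stdOrthonormalBasis]
  simp only [iteratedFDeriv_two_apply, Matrix.cons_val_zero, Matrix.cons_val_one]
  rw [← (stdOrthonormalBasis ℝ E).sum_sq_norm_inner_right (V u e x), Finset.mul_sum,
    Finset.mul_sum, ← Finset.sum_add_distrib]
  refine Finset.sum_congr rfl fun i _ => ?_
  rw [inner_dV'_loc hu hSe hne hinv hx, mul_inv_cancel_left₀ (hne x hx), Real.norm_eq_abs, sq_abs,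
    real_inner_comm (V u e x)]
  ring

theorem norm_V_loc (hS : IsOpen S) (hconv : Convex ℝ S) {f : ℝ → ℝ}
    (hf : ∀ x, Δ u x = f (u x)) {C : ℝ} (hb : ∀ x, |u x| ≤ C)
    {x y : E} (hx : x ∈ S) (hy : y ∈ S) : ‖V u e x‖ = ‖V u e y‖ := by
  by_contra hnn
  have hN : ‖V u e x‖ ^ 2 - ‖V u e y‖ ^ 2 ≠ 0 := by
    intro h
    have h1 := sub_eq_zero.1 h
    exact hnn ((sq_eq_sq₀ (norm_nonneg _) (norm_nonneg _)).1 h1)
  set M : E → ℝ := fun x => ∑ i, ⟪fderiv ℝ (V u e) x (stdOrthonormalBasis ℝ E i),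
      stdOrthonormalBasis ℝ E i⟫ with hM
  have hMinv : ∀ x ∈ S, ∀ s : ℝ, M (x + s • e) = M x := by
    intro x hx s
    have h1 : (fun z => V u e (z + s • e)) =ᶠ[𝓝 x] V u e :=
      (hS.mem_nhds hx |> Filter.eventually_of_mem) fun z hz => hinv z hz s
    have h2 : fderiv ℝ (V u e) (x + s • e) = fderiv ℝ (V u e) x := by
      rw [← fderiv_comp_add_right (s • e)]
      exact h1.fderiv_eq
    simp only [hM, h2]
  have eqn : ∀ x ∈ S, ∀ s : ℝ, f (u (x + s • e)) = fderiv ℝ u (x + s • e) e * M x +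
      fderiv ℝ (fderiv ℝ u) (x + s • e) e e * ‖V u e x‖ ^ 2 := by
    intro x hx s
    rw [← hf, lap_loc hu hSe hne hinv (hSe x hx s), hinv x hx]
    have := hMinv x hx s
    simp only [hM] at this
    rw [this]
  obtain ⟨c, hc⟩ : ∃ c : ℝ, ∀ s : ℝ, u (y + s • e) = u (x + (s + c) • e) := by
    refine translate_loc (om := fun x => innerSL ℝ (V u e x)) (p := fun x => fderiv ℝ u x e)
      hS hconv hSe (hu.differentiable (by norm_num)) ?_ ?_ ?_ ?_ hx hy
    · exact (innerSL ℝ).continuous.comp_continuousOn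
        (fun z hz => (contDiffAt_V hu (hne z hz)).continuousAt.continuousWithinAt)
    · intro x hx s
      simp only [hinv x hx]
    · intro x hx
      rw [innerSL_apply_apply, inner_V, inv_mul_cancel₀ (hne x hx)]
    · intro x hx
      ext w
      simp only [smul_apply, innerSL_apply_apply, smul_eq_mul]
      rw [inner_V, mul_inv_cancel_left₀ (hne x hx)]
  have t0 : (fun s : ℝ => u (y + s • e)) = fun s : ℝ => u (x + (s + c) • e) := funext hc
  have t1 : ∀ s : ℝ, fderiv ℝ u (y + s • e) e = fderiv ℝ u (x + (s + c) • e) e := by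
    intro s
    have h1 := prof (e := e) hu y s
    rw [t0] at h1
    exact h1.unique ((prof (e := e) hu x (s + c)).comp_add_const s c)
  have t2 : ∀ s : ℝ, fderiv ℝ (fderiv ℝ u) (y + s • e) e e =
      fderiv ℝ (fderiv ℝ u) (x + (s + c) • e) e e := by
    intro s
    have h1 := prof2 (e := e) hu y e s
    rw [show (fun s : ℝ => fderiv ℝ u (y + s • e) e) =
      fun s : ℝ => fderiv ℝ u (x + (s + c) • e) e from funext t1] at h1
    exact h1.unique ((prof2 (e := e) hu x e (s + c)).comp_add_const s c)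
  have key : ∀ t : ℝ, fderiv ℝ (fderiv ℝ u) (x + t • e) e e =
      (M y - M x) / (‖V u e x‖ ^ 2 - ‖V u e y‖ ^ 2) * fderiv ℝ u (x + t • e) e := by
    intro t
    have h1 := eqn x hx t
    have h2 := eqn y hy (t - c)
    rw [t1, t2, sub_add_cancel] at h2
    have h3 := congrFun t0 (t - c)
    simp only [sub_add_cancel] at h3
    rw [h3, h1] at h2
    field_simp
    linarith
  refine no_exp' (fun t => u (x + t • e)) (fun t => fderiv ℝ u (x + t • e) e)
    ((M y - M x) / (‖V u e x‖ ^ 2 - ‖V u e y‖ ^ 2)) C (fun t => prof hu x t) (fun t => ?_)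
    (fun t => hne _ (hSe x hx t)) (fun t => hb _)
  rw [← key t]
  exact prof2 hu x e t

end

/-- **The dichotomy.** -/
theorem dichotomy {u : E → ℝ} {a : E} (hu : ContDiff ℝ 2 u) (hg : ∀ x, fderiv ℝ u x ≠ 0)
    (hpar : ∀ (x : E) (s : ℝ), ∃ c : ℝ, fderiv ℝ u (x + s • a) = c • fderiv ℝ u x)
    {f : ℝ → ℝ} (hf : ∀ x, Δ u x = f (u x)) {C : ℝ} (hb : ∀ x, |u x| ≤ C) :
    (∀ x, fderiv ℝ u x a = 0) ∨
      ∃ (e' : E) (h : ℝ → ℝ), ‖e'‖ = 1 ∧ ∀ x, u x = h ⟪e', x⟫ := by
  by_cases hz : ∀ x, fderiv ℝ u x a = 0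
  · exact Or.inl hz
  right
  push Not at hz
  obtain ⟨x0, hx0⟩ := hz
  have hfc : Continuous (fderiv ℝ u) := (contDiff_fd hu).continuous
  have hac : Continuous fun x => fderiv ℝ u x a := hfc.clm_apply continuous_const
  have hUc : Continuous (U u) := by
    refine continuous_finsetSum _ fun i _ => ?_
    exact (hfc.clm_apply continuous_const).smul continuous_const
  have hU0 : ∀ x, U u x ≠ 0 := by
    intro x h0
    apply hg x
    ext w
    rw [← inner_U, h0, inner_zero_left]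
    rfl
  have hfwd : ∀ x (s : ℝ), fderiv ℝ u x a ≠ 0 → fderiv ℝ u (x + s • a) a ≠ 0 := by
    intro x s hx
    obtain ⟨c, hc⟩ := hpar x s
    have hc0 : c ≠ 0 := by
      rintro rfl
      rw [zero_smul] at hc
      exact hg _ hc
    rw [hc, smul_apply, smul_eq_mul]
    exact mul_ne_zero hc0 hx
  have hVinv : ∀ x (s : ℝ), fderiv ℝ u x a ≠ 0 → V u a (x + s • a) = V u a x := by
    intro x s hx
    obtain ⟨c, hc⟩ := hpar x s
    refine ext_inner_right ℝ fun w => ?_
    have h1 := hfwd x s hx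
    rw [inner_V, inner_V, hc]
    rw [hc] at h1
    simp only [smul_apply, smul_eq_mul] at h1 ⊢
    have h3 : c ≠ 0 := left_ne_zero_of_mul h1
    field_simp
  set h : E → ℝ := fun x => (fderiv ℝ u x a) ^ 2 / ‖U u x‖ ^ 2 with hh
  have hhc : Continuous h := (hac.pow 2).div (hUc.norm.pow 2)
    fun x => pow_ne_zero _ (norm_ne_zero_iff.2 (hU0 x))
  have hhne : ∀ x, h x ≠ 0 ↔ fderiv ℝ u x a ≠ 0 := by
    intro x
    have := norm_ne_zero_iff.2 (hU0 x)
    simp [hh, this]
  have hhV : ∀ x, fderiv ℝ u x a ≠ 0 → h x = (‖V u a x‖ ^ 2)⁻¹ := by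
    intro x hx
    have := norm_ne_zero_iff.2 (hU0 x)
    simp only [hh, V]
    rw [norm_smul, norm_inv, mul_pow, inv_pow, Real.norm_eq_abs, sq_abs]
    field_simp
  have hloc : ∀ x, fderiv ℝ u x a ≠ 0 → ∀ᶠ y in 𝓝 x, h y = h x := by
    intro x hx
    have hΩ : IsOpen {z | fderiv ℝ u z a ≠ 0} := isOpen_ne_fun hac continuous_const
    obtain ⟨r, hr, hball⟩ := Metric.isOpen_iff.1 hΩ x hx
    set S : Set E := {z | ∃ s : ℝ, z + s • a ∈ Metric.ball x r} with hS
    have hSo : IsOpen S := by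
      have : S = ⋃ s : ℝ, (fun z => z + s • a) ⁻¹' Metric.ball x r := by
        ext z; simp [hS]
      rw [this]
      exact isOpen_iUnion fun s => Metric.isOpen_ball.preimage (by fun_prop)
    have hSconv : Convex ℝ S := by
      rintro y ⟨s, hs⟩ z ⟨t, ht⟩ p q hp hq hpq
      refine ⟨p * s + q * t, ?_⟩
      have h1 := (convex_ball x r) hs ht hp hq hpq
      have h2 : p • y + q • z + (p * s + q * t) • a = p • (y + s • a) + q • (z + t • a) := by
        module
      rw [h2]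
      exact h1
    have hSe : ∀ z ∈ S, ∀ s : ℝ, z + s • a ∈ S := by
      rintro z ⟨t, ht⟩ s
      refine ⟨t - s, ?_⟩
      have h2 : z + s • a + (t - s) • a = z + t • a := by module
      rw [h2]
      exact ht
    have hSne : ∀ z ∈ S, fderiv ℝ u z a ≠ 0 := by
      rintro z ⟨t, ht⟩
      have h1 := hfwd (z + t • a) (-t) (hball ht)
      have h2 : z + t • a + (-t) • a = z := by module
      rwa [h2] at h1
    have hxS : x ∈ S := ⟨0, by simpa using hr⟩
    filter_upwards [hSo.mem_nhds hxS] with y hy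
    rw [hhV x hx, hhV y (hSne y hy), norm_V_loc hu hSe hSne
      (fun z hz s => hVinv z s (hSne z hz)) hSo hSconv hf hb hy hxS]
  have hclopen : IsClopen {x | h x = h x0} := by
    refine ⟨isClosed_eq hhc continuous_const, ?_⟩
    rw [isOpen_iff_mem_nhds]
    intro x hx
    have hx' : h x = h x0 := hx
    have h1 : fderiv ℝ u x a ≠ 0 := by
      rw [← hhne, hx', hhne]
      exact hx0
    filter_upwards [hloc x h1] with y hy
    exact hy.trans hx'
  have huniv := hclopen.eq_univ ⟨x0, rfl⟩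
  have hall : ∀ x, fderiv ℝ u x a ≠ 0 := by
    intro x
    have hx : x ∈ {x | h x = h x0} := by rw [huniv]; exact mem_univ x
    rw [← hhne, show h x = h x0 from hx, hhne]
    exact hx0
  have hsign : (∀ x, 0 < fderiv ℝ u x a) ∨ ∀ x, fderiv ℝ u x a < 0 := by
    by_contra hcon
    push Not at hcon
    obtain ⟨⟨s, hs⟩, t, ht⟩ := hcon
    obtain ⟨r, hr⟩ := mem_range_of_exists_le_of_exists_ge hac ⟨s, hs⟩ ⟨t, ht⟩
    exact hall r hr
  rcases hsign with hs | hs
  · exact one_dim hu hs (inv_of_parallel hs hpar) hf hb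
  · have hs' : ∀ x, 0 < fderiv ℝ u x (-a) := fun x => by
      rw [map_neg]; exact neg_pos.2 (hs x)
    refine one_dim hu hs' (inv_of_parallel hs' fun x s => ?_) hf hb
    rw [smul_neg, ← neg_smul]
    exact hpar x (-s)

end Vale.Agent.P134
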