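import Vale.Agent.P134.OneDim

open Set Filter Topology InnerProductSpace
open scoped InnerProductSpace RealInnerProductSpace Laplacian

namespace Vale.Agent.P134

variable {E : Type*} [NormedAddCommGroup E] [InnerProductSpace ℝ E] [FiniteDimensional ℝ E]

/-- normal directions constant along the lines parallel to `e` -/
theorem inv_of_parallel {u : E → ℝ} {e : E} (hpos : ∀ x, 0 < fderiv ℝ u x e)
    (h : ∀ (x : E) (s : ℝ), ∃ c : ℝ, fderiv ℝ u (x + s • e) = c • fderiv ℝ u x)
    (x : E) (s : ℝ) : V u e (x + s • e) = V u e x := by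
  obtain ⟨c, hc⟩ := h x s
  refine ext_inner_right ℝ fun w => ?_
  rw [inner_V, inner_V, hc]
  simp only [smul_apply, smul_eq_mul]
  have h1 := hpos (x + s • e)
  rw [hc] at h1
  simp only [smul_apply, smul_eq_mul] at h1
  have h2 := (hpos x).ne'
  have h3 : c ≠ 0 := by
    rintro rfl
    simp at h1
  field_simp

/-- the derivative along `e` is a function of `u` -/
theorem inv_of_function {u : E → ℝ} {e : E} (hu : ContDiff ℝ 2 u)
    (hpos : ∀ x, 0 < fderiv ℝ u x e) {G : ℝ → ℝ} (hG : ∀ x, DifferentiableAt ℝ G (u x))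
    (h : ∀ x, fderiv ℝ u x e = G (u x)) (x : E) (s : ℝ) :
    V u e (x + s • e) = V u e x := by
  have hH : ∀ y v, fderiv ℝ (fderiv ℝ u) y v e = deriv G (u y) * fderiv ℝ u y v := by
    intro y v
    have h1 : HasFDerivAt (fun y => fderiv ℝ u y e)
        (((fderiv ℝ (fderiv ℝ u) y).flip) e) y := by
      have := (hasH hu y).clm_apply (hasFDerivAt_const e y)
      simpa using this
    have h2 : HasFDerivAt (fun y => G (u y)) (deriv G (u y) • fderiv ℝ u y) y :=
      (hG y).hasDerivAt.comp_hasFDerivAt y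
        ((hu.differentiable (by norm_num)) y).hasFDerivAt
    rw [show (fun y => fderiv ℝ u y e) = fun y => G (u y) from funext h] at h1
    have h3 := congrArg (fun L : E →L[ℝ] ℝ => L v) (h1.unique h2)
    simpa using h3
  refine ext_inner_right ℝ fun w => ?_
  rw [inner_V, inner_V]
  have hd : ∀ t : ℝ, HasDerivAt
      (fun t : ℝ => (fderiv ℝ u (x + t • e) e)⁻¹ * fderiv ℝ u (x + t • e) w) 0 t := by
    intro t
    have h1 := ((prof2 (e := e) hu x e t).inv (hpos _).ne').mul (prof2 (e := e) hu x w t)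
    have h2 := (hpos (x + t • e)).ne'
    have h5 : -(fderiv ℝ (fderiv ℝ u) (x + t • e) e e) / (fderiv ℝ u (x + t • e) e) ^ 2 *
        (fderiv ℝ u (x + t • e) w) +
      (fun s : ℝ => fderiv ℝ u (x + s • e) e)⁻¹ t *
        (fderiv ℝ (fderiv ℝ u) (x + t • e) e w) = 0 := by
      rw [hH, symmH hu (x + t • e) e w, hH]
      simp only [Pi.inv_apply]
      field_simp
      ring
    rw [h5] at h1
    exact h1
  have h3 := is_const_of_deriv_eq_zero (fun t => (hd t).differentiableAt)
    (fun t => (hd t).deriv) s 0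
  simpa using h3

/-- the profiles are translates of one another -/
theorem inv_of_translates {u : E → ℝ} {e : E} (hu : ContDiff ℝ 2 u)
    (hpos : ∀ x, 0 < fderiv ℝ u x e)
    (h : ∀ x y : E, ∃ c : ℝ, ∀ t : ℝ, u (y + t • e) = u (x + (t + c) • e)) (x : E) (s : ℝ) :
    V u e (x + s • e) = V u e x := by
  refine inv_of_parallel hpos (fun x s => ?_) x s
  set φ : ℝ → ℝ := fun t => u (x + t • e) with hφ
  have hd : ∀ t, HasDerivAt φ (fderiv ℝ u (x + t • e) e) t := fun t => prof hu x t
  have hmono : StrictMono φ := strictMono_of_deriv_pos fun t => by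
    rw [(hd t).deriv]; exact hpos _
  have hcd : ContDiff ℝ 2 φ := by
    have : ContDiff ℝ 2 fun t : ℝ => x + t • e := by fun_prop
    exact hu.comp this
  have hst : HasStrictDerivAt φ (fderiv ℝ u (x + (0 : ℝ) • e) e) 0 :=
    hcd.contDiffAt.hasStrictDerivAt' (hd 0) (by norm_num)
  set ψ : ℝ → ℝ := Function.invFun φ with hψ
  have hleft : ∀ t, ψ (φ t) = t := Function.leftInverse_invFun hmono.injective
  have hψd : HasDerivAt ψ (fderiv ℝ u (x + (0 : ℝ) • e) e)⁻¹ (φ 0) :=
    (hst.to_local_left_inverse (hpos _).ne' (Eventually.of_forall hleft)).hasDerivAt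
  have hform : ∀ z, u (z + s • e) = φ (s + ψ (u z)) := by
    intro z
    obtain ⟨c, hc⟩ := h x z
    have h0 := hc 0
    rw [zero_smul, add_zero, zero_add] at h0
    have h1 : ψ (u z) = c := by rw [h0]; exact hleft c
    rw [h1]
    exact hc s
  have hux : u x = φ 0 := by simp [hφ]
  have hc1 : HasDerivAt (fun r => φ (s + ψ r))
      (fderiv ℝ u (x + (s + ψ (u x)) • e) e * (fderiv ℝ u (x + (0 : ℝ) • e) e)⁻¹) (u x) := by
    rw [← hux] at hψd
    exact (hd (s + ψ (u x))).comp (u x) (hψd.const_add s)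
  have hc2 := hc1.comp_hasFDerivAt x ((hu.differentiable (by norm_num)) x).hasFDerivAt
  have hc3 : HasFDerivAt (fun z => u (z + s • e)) (fderiv ℝ u (x + s • e)) x := by
    have h5 : HasFDerivAt (fun z : E => z + s • e) (ContinuousLinearMap.id ℝ E) x :=
      (hasFDerivAt_id x).add_const _
    have h6 := ((hu.differentiable (by norm_num)) (x + s • e)).hasFDerivAt.comp x h5
    rw [ContinuousLinearMap.comp_id] at h6
    exact h6
  rw [show (fun z => u (z + s • e)) = fun z => φ (s + ψ (u z)) from funext hform] at hc3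
  exact ⟨_, hc3.unique hc2⟩

end Vale.Agent.P134
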