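import Vale.Agent.P134.Rigid

open Set Filter Topology InnerProductSpace
open scoped InnerProductSpace RealInnerProductSpace

namespace Vale.Agent.P134

variable {E : Type*} [NormedAddCommGroup E] [InnerProductSpace ℝ E] [FiniteDimensional ℝ E]

/-- the gradient in an orthonormal basis -/
noncomputable def U (u : E → ℝ) (x : E) : E :=
  ∑ i, fderiv ℝ u x (stdOrthonormalBasis ℝ E i) • stdOrthonormalBasis ℝ E i

theorem inner_U (u : E → ℝ) (x w : E) : ⟪U u x, w⟫ = fderiv ℝ u x w := by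
  conv_rhs => rw [← (stdOrthonormalBasis ℝ E).sum_repr w]
  simp only [U, sum_inner, inner_smul_left, map_sum, map_smul, smul_eq_mul,
    OrthonormalBasis.repr_apply_apply]
  refine Finset.sum_congr rfl fun i _ => ?_
  simp [mul_comm]

/-- the gradient divided by the derivative along `e` -/
noncomputable def V (u : E → ℝ) (e x : E) : E := (fderiv ℝ u x e)⁻¹ • U u x

theorem inner_V (u : E → ℝ) (e x w : E) :
    ⟪V u e x, w⟫ = (fderiv ℝ u x e)⁻¹ * fderiv ℝ u x w := by
  rw [V, inner_smul_left, inner_U]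
  simp

section
variable {u : E → ℝ} {e : E} (hu : ContDiff ℝ 2 u) (hpos : ∀ x, 0 < fderiv ℝ u x e)
include hu

theorem contDiff_fd : ContDiff ℝ 1 (fderiv ℝ u) := hu.fderiv_right (by norm_num)

theorem hasH (x : E) : HasFDerivAt (fderiv ℝ u) (fderiv ℝ (fderiv ℝ u) x) x :=
  ((contDiff_fd hu).differentiable (by norm_num) x).hasFDerivAt

theorem symmH (x v w : E) :
    fderiv ℝ (fderiv ℝ u) x v w = fderiv ℝ (fderiv ℝ u) x w v :=
  (hu.contDiffAt.isSymmSndFDerivAt (by simp)).eq v w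

include hpos

theorem contDiff_V : ContDiff ℝ 1 (V u e) := by
  have h1 : ContDiff ℝ 1 fun x => fderiv ℝ u x e := (contDiff_fd hu).clm_apply contDiff_const
  have h2 : ContDiff ℝ 1 (U u) := by
    refine ContDiff.sum fun i _ => ?_
    exact ((contDiff_fd hu).clm_apply contDiff_const).smul contDiff_const
  exact (h1.inv fun x => (hpos x).ne').smul h2

theorem inner_dV (x v w : E) : ⟪fderiv ℝ (V u e) x v, w⟫ =
    -((fderiv ℝ u x e) ^ 2)⁻¹ * fderiv ℝ (fderiv ℝ u) x v e * fderiv ℝ u x w +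
      (fderiv ℝ u x e)⁻¹ * fderiv ℝ (fderiv ℝ u) x v w := by
  have hV : HasFDerivAt (V u e) (fderiv ℝ (V u e) x) x :=
    ((contDiff_V hu hpos).differentiable (by norm_num) x).hasFDerivAt
  have hℓ : HasDerivAt (fun t : ℝ => x + t • v) v 0 := by
    simpa using ((hasDerivAt_id (0 : ℝ)).smul_const v).const_add x
  have h0 : x + (0 : ℝ) • v = x := by simp
  have h1 : HasDerivAt (fun t : ℝ => V u e (x + t • v)) (fderiv ℝ (V u e) x v) 0 := by
    have := HasFDerivAt.comp_hasDerivAt (x := (0 : ℝ)) (f := fun t : ℝ => x + t • v)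
      (l := V u e) (l' := fderiv ℝ (V u e) x) (by rw [h0]; exact hV) hℓ
    exact this
  have h2 : HasDerivAt (fun t : ℝ => ⟪V u e (x + t • v), w⟫) ⟪fderiv ℝ (V u e) x v, w⟫ 0 := by
    have := h1.inner ℝ (hasDerivAt_const (0 : ℝ) w)
    simpa using this
  have hfd : ∀ z : E, HasDerivAt (fun t : ℝ => fderiv ℝ u (x + t • v) z)
      (fderiv ℝ (fderiv ℝ u) x v z) 0 := by
    intro z
    have h3 := HasFDerivAt.comp_hasDerivAt (x := (0 : ℝ)) (f := fun t : ℝ => x + t • v)
      (l := fderiv ℝ u) (l' := fderiv ℝ (fderiv ℝ u) x) (by rw [h0]; exact hasH hu x) hℓ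
    have h4 := h3.clm_apply (hasDerivAt_const (0 : ℝ) z)
    simpa using h4
  have h5 := ((hfd e).inv (by rw [h0]; exact (hpos x).ne')).mul (hfd w)
  have h6 : (fun t : ℝ => ⟪V u e (x + t • v), w⟫) =
      fun t : ℝ => (fderiv ℝ u (x + t • v) e)⁻¹ * fderiv ℝ u (x + t • v) w := by
    funext t
    rw [inner_V]
  rw [h6] at h2
  have h7 := h2.unique h5
  rw [h7, h0]
  simp only [Pi.inv_apply, h0]
  ring

end

end Vale.Agent.P134
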