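import Vale.Agent.P134.Forms

open Set Filter Topology InnerProductSpace
open scoped InnerProductSpace RealInnerProductSpace Laplacian

namespace Vale.Agent.P134

theorem no_exp' (F F' : ℝ → ℝ) (κ C : ℝ) (h1 : ∀ t, HasDerivAt F (F' t) t)
    (h2 : ∀ t, HasDerivAt F' (κ * F' t) t) (hne : ∀ t, F' t ≠ 0) (hb : ∀ t, |F t| ≤ C) :
    False := by
  have hc : Continuous F' := continuous_iff_continuousAt.2 fun t => (h2 t).continuousAt
  have hsign : (∀ t, 0 < F' t) ∨ ∀ t, F' t < 0 := by
    by_contra hcon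
    push Not at hcon
    obtain ⟨⟨s, hs⟩, t, ht⟩ := hcon
    obtain ⟨r, hr⟩ := mem_range_of_exists_le_of_exists_ge hc ⟨s, hs⟩ ⟨t, ht⟩
    exact hne r hr
  rcases hsign with h | h
  · exact no_exp F F' κ C h1 h2 h hb
  · refine no_exp (fun t => -F t) (fun t => -F' t) κ C (fun t => (h1 t).neg) (fun t => ?_)
      (fun t => neg_pos.2 (h t)) (fun t => by rw [abs_neg]; exact hb t)
    have := (h2 t).neg
    rw [mul_neg]
    exact this

variable {E : Type*} [NormedAddCommGroup E] [InnerProductSpace ℝ E]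

/-- local version of `translate` -/
theorem translate_loc {u : E → ℝ} {om : E → E →L[ℝ] ℝ} {p : E → ℝ} {e : E} {S : Set E}
    (hS : IsOpen S) (hconv : Convex ℝ S) (hSe : ∀ x ∈ S, ∀ s : ℝ, x + s • e ∈ S)
    (hu : Differentiable ℝ u) (hom : ContinuousOn om S)
    (hinv : ∀ x ∈ S, ∀ s : ℝ, om (x + s • e) = om x) (hone : ∀ x ∈ S, om x e = 1)
    (hp : ∀ x ∈ S, fderiv ℝ u x = p x • om x) {x y : E} (hx : x ∈ S) (hy : y ∈ S) :
    ∃ c : ℝ, ∀ s : ℝ, u (y + s • e) = u (x + (s + c) • e) := by
  set d := y - x with hd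
  set J : Set ℝ := {τ | x + τ • d ∈ S} with hJ
  have hlc : Continuous fun σ : ℝ => x + σ • d := by fun_prop
  have hJo : IsOpen J := hS.preimage hlc
  have hJc : OrdConnected J := by
    have : Convex ℝ J := by
      intro a ha b hb s t hs ht hst
      have h1 := hconv ha hb hs ht hst
      have h2 : s • (x + a • d) + t • (x + b • d) = x + (s • a + t • b) • d := by
        have : s • x + t • x = x := by rw [← add_smul, hst, one_smul]
        calc s • (x + a • d) + t • (x + b • d) = (s • x + t • x) + (s • a + t • b) • d := by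
              simp only [smul_eq_mul]; module
          _ = _ := by rw [this]
      rw [h2] at h1
      exact h1
    exact this.ordConnected
  have h0J : (0 : ℝ) ∈ J := by simpa [hJ] using hx
  have h1J : (1 : ℝ) ∈ J := by
    simp only [hJ, mem_setOf_eq, one_smul, hd, add_sub_cancel]; exact hy
  set k : ℝ → ℝ := fun σ => om (x + σ • d) d with hk
  have hkc : ContinuousOn k J :=
    (hom.comp hlc.continuousOn (fun σ hσ => hσ)).clm_apply continuousOn_const
  set I : ℝ → ℝ := fun τ => ∫ σ in (0 : ℝ)..τ, k σ with hI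
  have hId : ∀ τ ∈ J, HasDerivAt I (k τ) τ := fun τ hτ =>
    intervalIntegral.integral_hasDerivAt_right
      ((hkc.mono (hJc.uIcc_subset h0J hτ)).intervalIntegrable)
      (hkc.stronglyMeasurableAtFilter hJo τ hτ) (hkc.continuousAt (hJo.mem_nhds hτ))
  refine ⟨I 1, fun s => ?_⟩
  set s' : ℝ := s + I 1 with hs'
  set γ : ℝ → E := fun τ => x + τ • d + (s' - I τ) • e with hγ
  have hγd : ∀ τ ∈ J, HasDerivAt γ (d + (-(k τ)) • e) τ := by
    intro τ hτ
    have h1 : HasDerivAt (fun τ : ℝ => x + τ • d) d τ := by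
      simpa using ((hasDerivAt_id τ).smul_const d).const_add x
    have h2 : HasDerivAt (fun τ : ℝ => (s' - I τ) • e) ((-(k τ)) • e) τ := by
      have h3 : HasDerivAt (fun τ : ℝ => s' - I τ) (-(k τ)) τ := by
        simpa using (hId τ hτ).const_sub s'
      exact h3.smul_const e
    exact h1.add h2
  have hconst : ∀ τ ∈ J, HasDerivAt (fun τ => u (γ τ)) 0 τ := by
    intro τ hτ
    have h1 := (hu (γ τ)).hasFDerivAt.comp_hasDerivAt τ (hγd τ hτ)
    have h2 : fderiv ℝ u (γ τ) (d + (-(k τ)) • e) = 0 := by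
      have hγS : γ τ ∈ S := hSe _ hτ _
      rw [hp _ hγS, hγ]
      simp only
      rw [hinv _ hτ]
      simp only [smul_apply, map_add, map_smul, hone _ hτ]
      simp [hk]
      ring
    rw [h2] at h1
    exact h1
  have hsub : Icc (0 : ℝ) 1 ⊆ J := hJc.out h0J h1J
  have h0 := constant_of_has_deriv_right_zero (f := fun τ => u (γ τ)) (a := 0) (b := 1)
    (fun τ hτ => (hconst τ (hsub hτ)).continuousAt.continuousWithinAt)
    (fun τ hτ => (hconst τ (hsub ⟨hτ.1, hτ.2.le⟩)).hasDerivWithinAt) 1 ⟨zero_le_one, le_rfl⟩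
  have g0 : γ 0 = x + s' • e := by
    simp [hγ, hI]
  have g1 : γ 1 = y + s • e := by
    simp only [hγ, hs', one_smul, hd]
    rw [add_sub_cancel_right, add_sub_cancel]
  simp only [g0, g1] at h0
  exact h0

end Vale.Agent.P134
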