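import Mathlib

/-! P134: De Giorgi's conjecture when the normal direction is constant along vertical lines. -/

open Set Filter Topology
open scoped InnerProductSpace RealInnerProductSpace

namespace Vale.Agent.P134

variable {E : Type*} [NormedAddCommGroup E] [InnerProductSpace ℝ E] [FiniteDimensional ℝ E]

/-- a bounded function on the line cannot have a positive derivative `F'` with `F'' = κ F'` -/
theorem no_exp (F F' : ℝ → ℝ) (κ C : ℝ) (h1 : ∀ t, HasDerivAt F (F' t) t)
    (h2 : ∀ t, HasDerivAt F' (κ * F' t) t) (hpos : ∀ t, 0 < F' t) (hb : ∀ t, |F t| ≤ C) :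
    False := by
  have ha := hpos 0
  have hC : 0 ≤ C := (abs_nonneg _).trans (hb 0)
  set T : ℝ := (2 * C + 1) / F' 0 with hT
  have hT0 : 0 < T := by positivity
  have hTa : F' 0 * T = 2 * C + 1 := by rw [hT]; field_simp
  have hcont : Continuous F := continuous_iff_continuousAt.2 fun t => (h1 t).continuousAt
  rcases le_total 0 κ with hκ | hκ
  · have hmono : Monotone F' := monotone_of_deriv_nonneg (fun t => (h2 t).differentiableAt)
      (fun t => by rw [(h2 t).deriv]; exact mul_nonneg hκ (hpos t).le)
    obtain ⟨c, hc, he⟩ := exists_hasDerivAt_eq_slope F F' hT0 hcont.continuousOn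
      (fun x _ => h1 x)
    have h3 : F' 0 ≤ F' c := hmono hc.1.le
    rw [he, sub_zero, le_div_iff₀ hT0, hTa] at h3
    have := abs_le.1 (hb T)
    have := abs_le.1 (hb 0)
    linarith
  · have hanti : Antitone F' := antitone_of_deriv_nonpos (fun t => (h2 t).differentiableAt)
      (fun t => by
        rw [(h2 t).deriv]
        exact mul_nonpos_of_nonpos_of_nonneg hκ (hpos t).le)
    obtain ⟨c, hc, he⟩ := exists_hasDerivAt_eq_slope F F' (neg_lt_zero.2 hT0)
      hcont.continuousOn (fun x _ => h1 x)
    have h3 : F' 0 ≤ F' c := hanti hc.2.le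
    rw [he, zero_sub, neg_neg, le_div_iff₀ hT0, hTa] at h3
    have := abs_le.1 (hb (-T))
    have := abs_le.1 (hb 0)
    linarith

end Vale.Agent.P134
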