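import Vale.Agent.P134.Reduce

open Set Filter Topology InnerProductSpace
open scoped InnerProductSpace RealInnerProductSpace Laplacian

namespace Vale.Agent.P134

variable {n : ℕ}

/-- reduction of the dimension: a bounded solution on `R^(n+1)` that is constant along `a` comes
from a solution on `R^n` -/
theorem reduce2 {u : EuclideanSpace ℝ (Fin (n + 1)) → ℝ} (hu : ContDiff ℝ 2 u)
    {f : ℝ → ℝ} (hf : ∀ x, Δ u x = f (u x)) {e a : EuclideanSpace ℝ (Fin (n + 1))}
    (he : ∀ x, 0 < fderiv ℝ u x e) (ha : a ≠ 0)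
    (hc : ∀ (x : EuclideanSpace ℝ (Fin (n + 1))) (s : ℝ), u (x + s • a) = u x) :
    ∃ v : EuclideanSpace ℝ (Fin n) → ℝ, ContDiff ℝ 2 v ∧ (∀ y, Δ v y = f (v y)) ∧
      (∃ e' : EuclideanSpace ℝ (Fin n), ∀ y, 0 < fderiv ℝ v y e') ∧
      (∀ y, ∃ x, v y = u x) ∧
      (∃ π : EuclideanSpace ℝ (Fin (n + 1)) →ₗ[ℝ] EuclideanSpace ℝ (Fin n),
        (LinearMap.ker π ≤ Submodule.span ℝ {a}) ∧
        ∀ a' : EuclideanSpace ℝ (Fin (n + 1)),
          (∀ (x : EuclideanSpace ℝ (Fin (n + 1))) (s : ℝ), ∃ c : ℝ,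
            fderiv ℝ u (x + s • a') = c • fderiv ℝ u x) →
          ∀ (y : EuclideanSpace ℝ (Fin n)) (s : ℝ), ∃ c : ℝ,
            fderiv ℝ v (y + s • π a') = c • fderiv ℝ v y) ∧
      ((∃ (e' : EuclideanSpace ℝ (Fin n)) (g : ℝ → ℝ), ‖e'‖ = 1 ∧ ∀ y, v y = g ⟪e', y⟫) →
        ∃ (e' : EuclideanSpace ℝ (Fin (n + 1))) (g : ℝ → ℝ), ‖e'‖ = 1 ∧
          ∀ x, u x = g ⟪e', x⟫) := by
  have hna : ‖a‖ ≠ 0 := norm_ne_zero_iff.2 ha
  obtain ⟨b, hb⟩ := Orthonormal.exists_orthonormalBasis_extension_of_card_eq (𝕜 := ℝ)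
    (E := EuclideanSpace ℝ (Fin (n + 1))) (ι := Fin (n + 1)) (by simp)
    (v := fun _ => (‖a‖)⁻¹ • a) (s := {0}) (by
      constructor
      · intro i
        simp only [Set.restrict_apply]
        rw [norm_smul, norm_inv, norm_norm, inv_mul_cancel₀ hna]
      · intro i j hij
        exact absurd (Subtype.ext (i.2.trans j.2.symm)) hij)
  have hb0 : b 0 = (‖a‖)⁻¹ • a := hb 0 rfl
  set ι : EuclideanSpace ℝ (Fin n) →L[ℝ] EuclideanSpace ℝ (Fin (n + 1)) :=
    ∑ i : Fin n, (EuclideanSpace.proj i : EuclideanSpace ℝ (Fin n) →L[ℝ] ℝ).smulRight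
      (b i.succ) with hι
  have hιa : ∀ y, ι y = ∑ i : Fin n, y i • b i.succ := by
    intro y
    simp [hι, ContinuousLinearMap.sum_apply]
  have hιb : ∀ i : Fin n, ι (EuclideanSpace.basisFun (Fin n) ℝ i) = b i.succ := by
    intro i
    rw [hιa]
    simp [EuclideanSpace.basisFun_apply, Finset.sum_ite_eq]
  set π : EuclideanSpace ℝ (Fin (n + 1)) → EuclideanSpace ℝ (Fin n) :=
    fun x => WithLp.toLp 2 fun i => ⟪b i.succ, x⟫ with hπ
  have hdec : ∀ x, x = ⟪b 0, x⟫ • b 0 + ι (π x) := by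
    intro x
    conv_lhs => rw [← b.sum_repr' x]
    rw [Fin.sum_univ_succ, hιa]
  have hinnι : ∀ y x, ⟪ι y, x⟫ = ⟪y, π x⟫ := by
    intro y x
    rw [hιa, sum_inner]
    simp only [inner_smul_left, PiLp.inner_apply, hπ]
    refine Finset.sum_congr rfl fun i _ => ?_
    simp [mul_comm]
  have hπι : ∀ y, π (ι y) = y := by
    intro y
    ext i
    simp only [hπ, hιa, inner_sum, inner_smul_right]
    rw [Finset.sum_eq_single i]
    · rw [b.inner_eq_ite]; simp
    · intro j _ hj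
      rw [b.inner_eq_ite, if_neg (fun h => hj (Fin.succ_injective _ h).symm), mul_zero]
    · intro h; exact absurd (Finset.mem_univ i) h
  have hfa : ∀ x, fderiv ℝ u x a = 0 := by
    intro x
    have h1 := prof (e := a) hu x 0
    have h2 : (fun s : ℝ => u (x + s • a)) = fun _ => u x := funext fun s => hc x s
    rw [h2] at h1
    have h3 := h1.unique (hasDerivAt_const (0 : ℝ) (u x))
    simpa using h3
  have hfb0 : ∀ x, fderiv ℝ u x (b 0) = 0 := by
    intro x
    rw [hb0, map_smul, hfa, smul_zero]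
  have hu0 : ∀ x, u x = u (ι (π x)) := by
    intro x
    conv_lhs => rw [hdec x, hb0, smul_smul, add_comm]
    exact hc _ _
  refine ⟨fun y => u (ι y), hu.comp ι.contDiff, ?_, ⟨π e, ?_⟩, fun y => ⟨ι y, rfl⟩, ?_, ?_⟩
  · intro y
    rw [← hf (ι y), laplacian_eq_iteratedFDeriv_orthonormalBasis _ b,
      laplacian_eq_iteratedFDeriv_orthonormalBasis _ (EuclideanSpace.basisFun (Fin n) ℝ)]
    simp only [iteratedFDeriv_two_apply, Matrix.cons_val_zero, Matrix.cons_val_one]
    rw [Fin.sum_univ_succ]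
    have h0 : fderiv ℝ (fderiv ℝ u) (ι y) (b 0) (b 0) = 0 := by
      have h1 := prof2 (e := b 0) hu (ι y) (b 0) 0
      have h2 : (fun s : ℝ => fderiv ℝ u (ι y + s • b 0) (b 0)) = fun _ => (0 : ℝ) :=
        funext fun s => hfb0 _
      rw [h2] at h1
      have h3 := h1.unique (hasDerivAt_const (0 : ℝ) (0 : ℝ))
      simpa using h3
    rw [h0, zero_add]
    refine Finset.sum_congr rfl fun i _ => ?_
    rw [hess_comp hu, hιb]
  · intro y
    rw [fd_comp hu]
    have h1 := he (ι y)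
    rw [hdec e, map_add, map_smul, hfb0, smul_zero, zero_add] at h1
    exact h1
  · refine ⟨{ toFun := π, map_add' := ?_, map_smul' := ?_ }, ?_, ?_⟩
    · intro x y
      ext i
      simp [hπ, inner_add_right]
    · intro c x
      ext i
      simp [hπ, inner_smul_right]
    · intro x hx
      have hx' : π x = 0 := hx
      rw [hdec x, hx', map_zero ι, add_zero, hb0, smul_smul]
      exact Submodule.smul_mem _ _ (Submodule.mem_span_singleton_self a)
    · intro a' ha' y s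
      obtain ⟨c, hc'⟩ := ha' (ι y) s
      refine ⟨c, ?_⟩
      have hshift : ∀ (x : EuclideanSpace ℝ (Fin (n + 1))) (t : ℝ),
          fderiv ℝ u (x + t • b 0) = fderiv ℝ u x := by
        intro x t
        rw [← fderiv_comp_add_right (t • b 0)]
        congr 1
        funext z
        rw [hb0, smul_smul]
        exact hc z _
      have hιπ : ι y + s • ι (π a') = ι y + s • a' + (-(s * ⟪b 0, a'⟫)) • b 0 := by
        conv_rhs => rw [hdec a']
        have hb00 : ⟪b 0, b 0⟫ = (1 : ℝ) := by rw [b.inner_eq_ite]; simp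
        have h9 : ⟪b 0, ⟪b 0, a'⟫ • b 0 + ι (π a')⟫ = ⟪b 0, a'⟫ := by
          rw [← hdec a']
        rw [h9]
        module
      ext w
      change fderiv ℝ (fun y => u (ι y)) (y + s • π a') w = (c • fderiv ℝ (fun y => u (ι y)) y) w
      rw [smul_apply, fd_comp hu, fd_comp hu, map_add, map_smul, hιπ, hshift, hc']
      rfl
  · rintro ⟨e', g, he', hg⟩
    refine ⟨ι e', g, ?_, fun x => ?_⟩
    · have h1 : ⟪ι e', ι e'⟫ = 1 := by
        rw [hinnι, hπι, real_inner_self_eq_norm_sq, he']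
        norm_num
      rw [real_inner_self_eq_norm_sq] at h1
      have h2 : ‖ι e'‖ ^ 2 = 1 ^ 2 := by rw [h1]; norm_num
      exact (sq_eq_sq₀ (norm_nonneg _) zero_le_one).1 h2
    · rw [hu0 x, hinnι]
      exact hg (π x)


/-- induction on the number of directions -/
theorem many {f : ℝ → ℝ} (m : ℕ)
    (hm : ∀ v : EuclideanSpace ℝ (Fin m) → ℝ, ContDiff ℝ 2 v → (∀ y, |v y| ≤ 1) →
      (∀ y, Δ v y = f (v y)) → (∃ e' : EuclideanSpace ℝ (Fin m), ∀ y, 0 < fderiv ℝ v y e') →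
      ∃ (e' : EuclideanSpace ℝ (Fin m)) (g : ℝ → ℝ), ‖e'‖ = 1 ∧ ∀ y, v y = g ⟪e', y⟫)
    (k : ℕ) : ∀ u : EuclideanSpace ℝ (Fin (m + k)) → ℝ, ContDiff ℝ 2 u → (∀ y, |u y| ≤ 1) →
      (∀ y, Δ u y = f (u y)) → (∃ e' : EuclideanSpace ℝ (Fin (m + k)),
        ∀ y, 0 < fderiv ℝ u y e') →
      (∃ a : Fin k → EuclideanSpace ℝ (Fin (m + k)), LinearIndependent ℝ a ∧
        ∀ i, ∀ (x : EuclideanSpace ℝ (Fin (m + k))) (s : ℝ), ∃ c : ℝ,
          fderiv ℝ u (x + s • a i) = c • fderiv ℝ u x) →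
      ∃ (e' : EuclideanSpace ℝ (Fin (m + k))) (g : ℝ → ℝ), ‖e'‖ = 1 ∧
        ∀ y, u y = g ⟪e', y⟫ := by
  induction k with
  | zero => exact fun u hu hb hf he _ => hm u hu hb hf he
  | succ k ih =>
    rintro u hu hb hf ⟨e, he⟩ ⟨a, hli, hpar⟩
    have hg : ∀ x, fderiv ℝ u x ≠ 0 := by
      intro x h0
      have := he x
      rw [h0] at this
      simp at this
    rcases dichotomy hu hg (hpar 0) hf hb with h1 | h1
    · have hc : ∀ (x : EuclideanSpace ℝ (Fin (m + k + 1))) (s : ℝ), u (x + s • a 0) = u x := by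
        intro x s
        have hd : ∀ t : ℝ, HasDerivAt (fun t : ℝ => u (x + t • a 0)) 0 t := by
          intro t
          have h2 := prof (e := a 0) hu x t
          rwa [h1] at h2
        have h3 := is_const_of_deriv_eq_zero (fun t => (hd t).differentiableAt)
          (fun t => (hd t).deriv) s 0
        simpa using h3
      obtain ⟨v, hv, hvf, hve, hvb, ⟨π, hker, hπ⟩, hback⟩ :=
        reduce2 (n := m + k) hu hf he (hli.ne_zero 0) hc
      refine hback (ih v hv (fun y => ?_) hvf hve ⟨fun i => π (a i.succ), ?_, fun i => ?_⟩)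
      · obtain ⟨x, hx⟩ := hvb y
        rw [hx]
        exact hb x
      · have h2 := linearIndependent_fin_succ.1 hli
        refine h2.1.map (f := π) ?_
        refine Disjoint.mono_right hker ?_
        rw [Submodule.disjoint_span_singleton' (hli.ne_zero 0)]
        exact h2.2
      · exact hπ _ (hpar i.succ)
    · exact h1

end Vale.Agent.P134
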