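import Vale.Agent.P134.Grad

open Set Filter Topology InnerProductSpace
open scoped InnerProductSpace RealInnerProductSpace Laplacian

namespace Vale.Agent.P134

variable {E : Type*} [NormedAddCommGroup E] [InnerProductSpace ℝ E] [FiniteDimensional ℝ E]

section
variable {u : E → ℝ} {e : E} (hu : ContDiff ℝ 2 u) (hpos : ∀ x, 0 < fderiv ℝ u x e)
  (hinv : ∀ (x : E) (s : ℝ), V u e (x + s • e) = V u e x)
include hu

theorem prof (x : E) (s : ℝ) :
    HasDerivAt (fun s : ℝ => u (x + s • e)) (fderiv ℝ u (x + s • e) e) s := by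
  have hℓ : HasDerivAt (fun t : ℝ => x + t • e) e s := by
    simpa using ((hasDerivAt_id s).smul_const e).const_add x
  exact ((hu.differentiable (by norm_num)) (x + s • e)).hasFDerivAt.comp_hasDerivAt s hℓ

theorem prof2 (x w : E) (s : ℝ) :
    HasDerivAt (fun s : ℝ => fderiv ℝ u (x + s • e) w)
      (fderiv ℝ (fderiv ℝ u) (x + s • e) e w) s := by
  have hℓ : HasDerivAt (fun t : ℝ => x + t • e) e s := by
    simpa using ((hasDerivAt_id s).smul_const e).const_add x
  have h3 := (hasH hu (x + s • e)).comp_hasDerivAt s hℓ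
  have h4 := h3.clm_apply (hasDerivAt_const s w)
  simpa using h4

include hpos hinv

theorem K1 (x w : E) : fderiv ℝ (fderiv ℝ u) x e w =
    fderiv ℝ (fderiv ℝ u) x e e * ⟪V u e x, w⟫ := by
  have h1 := prof2 (e := e) hu x w 0
  have h2 := (prof2 (e := e) hu x e 0).mul_const ⟪V u e x, w⟫
  have h3 : (fun s : ℝ => fderiv ℝ u (x + s • e) w) =
      fun s : ℝ => fderiv ℝ u (x + s • e) e * ⟪V u e x, w⟫ := by
    funext s
    rw [← hinv x s, inner_V, mul_inv_cancel_left₀ (hpos _).ne']
  rw [h3] at h1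
  have h4 := h1.unique h2
  simpa using h4

theorem inner_dV' (x v w : E) : ⟪fderiv ℝ (V u e) x v, w⟫ =
    (fderiv ℝ u x e)⁻¹ * (fderiv ℝ (fderiv ℝ u) x v w -
      fderiv ℝ (fderiv ℝ u) x e e * (⟪V u e x, v⟫ * ⟪V u e x, w⟫)) := by
  rw [inner_dV hu hpos, symmH hu x v e, K1 hu hpos hinv x v]
  rw [inner_V u e x w]
  have := (hpos x).ne'
  field_simp
  ring

theorem symm_dV (x v w : E) : ⟪fderiv ℝ (V u e) x v, w⟫ = ⟪fderiv ℝ (V u e) x w, v⟫ := by
  rw [inner_dV' hu hpos hinv, inner_dV' hu hpos hinv, symmH hu x v w]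
  ring

/-- the equation in terms of `V` -/
theorem lap (x : E) : Δ u x =
    fderiv ℝ u x e * (∑ i, ⟪fderiv ℝ (V u e) x (stdOrthonormalBasis ℝ E i),
      stdOrthonormalBasis ℝ E i⟫) +
      fderiv ℝ (fderiv ℝ u) x e e * ‖V u e x‖ ^ 2 := by
  rw [laplacian_eq_iteratedFDeriv_stdOrthonormalBasis]
  simp only [iteratedFDeriv_two_apply, Matrix.cons_val_zero, Matrix.cons_val_one]
  rw [← (stdOrthonormalBasis ℝ E).sum_sq_norm_inner_right (V u e x), Finset.mul_sum,
    Finset.mul_sum, ← Finset.sum_add_distrib]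
  refine Finset.sum_congr rfl fun i _ => ?_
  rw [inner_dV' hu hpos hinv, mul_inv_cancel_left₀ (hpos x).ne', Real.norm_eq_abs, sq_abs,
    real_inner_comm (V u e x)]
  ring

theorem trans_V (x y : E) (s : ℝ) :
    u (y + s • e) = u (x + (s + cc (fun x => innerSL ℝ (V u e x)) x y) • e) := by
  refine translate (hu.differentiable (by norm_num)) ?_ ?_ ?_ (p := fun x => fderiv ℝ u x e) ?_ x y s
  · exact (innerSL ℝ).continuous.comp (contDiff_V hu hpos).continuous
  · intro x s
    simp only [hinv]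
  · intro x
    rw [innerSL_apply_apply, inner_V, inv_mul_cancel₀ (hpos x).ne']
  · intro x
    ext w
    simp only [smul_apply, innerSL_apply_apply, smul_eq_mul]
    rw [inner_V, mul_inv_cancel_left₀ (hpos x).ne']

theorem prof_inj (x : E) : Function.Injective fun s : ℝ => u (x + s • e) := by
  have : StrictMono fun s : ℝ => u (x + s • e) :=
    strictMono_of_deriv_pos fun s => by rw [(prof hu x s).deriv]; exact hpos _
  exact this.injective

theorem cocycle (x y z : E) : cc (fun x => innerSL ℝ (V u e x)) x z =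
      cc (fun x => innerSL ℝ (V u e x)) x y + cc (fun x => innerSL ℝ (V u e x)) y z := by
  have h1 := trans_V hu hpos hinv x z 0
  have h2 := trans_V hu hpos hinv y z 0
  have h3 := trans_V hu hpos hinv x y (0 + cc (fun x => innerSL ℝ (V u e x)) y z)
  have h4 := prof_inj hu hpos hinv x (h1.symm.trans (h2.trans h3))
  linarith

theorem norm_V_const {f : ℝ → ℝ} (hf : ∀ x, Δ u x = f (u x)) {C : ℝ} (hb : ∀ x, |u x| ≤ C)
    (x y : E) : ‖V u e x‖ = ‖V u e y‖ := by
  by_contra hne
  have hN : ‖V u e x‖ ^ 2 - ‖V u e y‖ ^ 2 ≠ 0 := by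
    intro h
    have h1 := sub_eq_zero.1 h
    exact hne ((sq_eq_sq₀ (norm_nonneg _) (norm_nonneg _)).1 h1)
  set M : E → ℝ := fun x => ∑ i, ⟪fderiv ℝ (V u e) x (stdOrthonormalBasis ℝ E i),
      stdOrthonormalBasis ℝ E i⟫ with hM
  have hMinv : ∀ x (s : ℝ), M (x + s • e) = M x := by
    intro x s
    have h1 : (fun z => V u e (z + s • e)) = V u e := funext fun z => hinv z s
    have h2 : fderiv ℝ (V u e) (x + s • e) = fderiv ℝ (V u e) x := by
      rw [← fderiv_comp_add_right (s • e), h1]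
    simp only [hM, h2]
  have eqn : ∀ x (s : ℝ), f (u (x + s • e)) = fderiv ℝ u (x + s • e) e * M x +
      fderiv ℝ (fderiv ℝ u) (x + s • e) e e * ‖V u e x‖ ^ 2 := by
    intro x s
    rw [← hf, lap hu hpos hinv (x + s • e), hinv]
    have := hMinv x s
    simp only [hM] at this
    rw [this]
  set c := cc (fun x => innerSL ℝ (V u e x)) x y with hc
  have t0 : (fun s : ℝ => u (y + s • e)) = fun s : ℝ => u (x + (s + c) • e) :=
    funext fun s => trans_V hu hpos hinv x y s
  have t1 : ∀ s : ℝ, fderiv ℝ u (y + s • e) e = fderiv ℝ u (x + (s + c) • e) e := by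
    intro s
    have h1 := prof (e := e) hu y s
    rw [t0] at h1
    exact h1.unique ((prof (e := e) hu x (s + c)).comp_add_const s c)
  have t2 : ∀ s : ℝ, fderiv ℝ (fderiv ℝ u) (y + s • e) e e =
      fderiv ℝ (fderiv ℝ u) (x + (s + c) • e) e e := by
    intro s
    have h1 := prof2 (e := e) hu y e s
    rw [show (fun s : ℝ => fderiv ℝ u (y + s • e) e) =
      fun s : ℝ => fderiv ℝ u (x + (s + c) • e) e from funext t1] at h1
    exact h1.unique ((prof2 (e := e) hu x e (s + c)).comp_add_const s c)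
  have key : ∀ t : ℝ, fderiv ℝ (fderiv ℝ u) (x + t • e) e e =
      (M y - M x) / (‖V u e x‖ ^ 2 - ‖V u e y‖ ^ 2) * fderiv ℝ u (x + t • e) e := by
    intro t
    have h1 := eqn x t
    have h2 := eqn y (t - c)
    rw [t1, t2, sub_add_cancel] at h2
    have h3 := congrFun t0 (t - c)
    simp only [sub_add_cancel] at h3
    rw [h3, h1] at h2
    field_simp
    linarith
  refine no_exp (fun t => u (x + t • e)) (fun t => fderiv ℝ u (x + t • e) e)
    ((M y - M x) / (‖V u e x‖ ^ 2 - ‖V u e y‖ ^ 2)) C (fun t => prof hu x t) (fun t => ?_)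
    (fun t => hpos _) (fun t => hb _)
  rw [← key t]
  exact prof2 hu x e t

theorem V_const {f : ℝ → ℝ} (hf : ∀ x, Δ u x = f (u x)) {C : ℝ} (hb : ∀ x, |u x| ≤ C)
    (x y : E) : V u e x = V u e y :=
  const_of_cocycle (contDiff_V hu hpos) (symm_dV hu hpos hinv)
    (fun z => norm_V_const hu hpos hinv hf hb z x) (cocycle hu hpos hinv) x y

/-- the main theorem, with the invariance of `V` -/
theorem one_dim {f : ℝ → ℝ} (hf : ∀ x, Δ u x = f (u x)) {C : ℝ} (hb : ∀ x, |u x| ≤ C) :
    ∃ (e' : E) (h : ℝ → ℝ), ‖e'‖ = 1 ∧ ∀ x, u x = h ⟪e', x⟫ := by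
  set v := V u e 0 with hv
  have hVv : ∀ x, V u e x = v := fun x => V_const hu hpos hinv hf hb x 0
  have hve : ⟪v, e⟫ = 1 := by
    rw [hv, inner_V, inv_mul_cancel₀ (hpos 0).ne']
  have hv0 : v ≠ 0 := by
    rintro h
    rw [h, inner_zero_left] at hve
    norm_num at hve
  have hn : ‖v‖ ≠ 0 := norm_ne_zero_iff.2 hv0
  refine ⟨‖v‖⁻¹ • v, fun s => u (s • (‖v‖⁻¹ • v)), ?_, ?_⟩
  · rw [norm_smul, norm_inv, norm_norm, inv_mul_cancel₀ hn]
  · intro x
    have hconst : ∀ z w : E, ⟪v, z⟫ = 0 → u (w + z) = u w := by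
      intro z w hz
      have h1 : ∀ t : ℝ, HasDerivAt (fun t : ℝ => u (w + t • z)) 0 t := by
        intro t
        have hℓ : HasDerivAt (fun t : ℝ => w + t • z) z t := by
          simpa using ((hasDerivAt_id t).smul_const z).const_add w
        have h2 := ((hu.differentiable (by norm_num))
          (w + t • z)).hasFDerivAt.comp_hasDerivAt t hℓ
        have h3 : fderiv ℝ u (w + t • z) z = 0 := by
          have h4 := inner_V u e (w + t • z) z
          rw [hVv, hz] at h4
          rcases mul_eq_zero.1 h4.symm with h5 | h5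
          · exact absurd h5 (inv_ne_zero (hpos _).ne')
          · exact h5
        rw [h3] at h2
        exact h2
      have h5 := is_const_of_deriv_eq_zero (fun t => (h1 t).differentiableAt)
        (fun t => (h1 t).deriv) 1 0
      simpa using h5
    have h6 := hconst (x - ⟪‖v‖⁻¹ • v, x⟫ • (‖v‖⁻¹ • v)) (⟪‖v‖⁻¹ • v, x⟫ • (‖v‖⁻¹ • v)) (by
      rw [inner_sub_right, inner_smul_right, inner_smul_right, inner_smul_left,
        real_inner_self_eq_norm_sq]
      simp only [conj_trivial]
      field_simp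
      ring)
    rw [add_sub_cancel] at h6
    exact h6

end

end Vale.Agent.P134
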