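import Vale.Agent.P134.Dich

open Set Filter Topology InnerProductSpace
open scoped InnerProductSpace RealInnerProductSpace Laplacian

namespace Vale.Agent.P134

section
variable {E G : Type*} [NormedAddCommGroup E] [InnerProductSpace ℝ E] [FiniteDimensional ℝ E]
  [NormedAddCommGroup G] [InnerProductSpace ℝ G] [FiniteDimensional ℝ G]

theorem fd_comp {u : E → ℝ} (hu : ContDiff ℝ 2 u) (ι : G →L[ℝ] E) (y w : G) :
    fderiv ℝ (fun y => u (ι y)) y w = fderiv ℝ u (ι y) (ι w) := by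
  have h := ((hu.differentiable (by norm_num)) (ι y)).hasFDerivAt.comp y ι.hasFDerivAt
  have h2 := h.fderiv
  have h3 : fderiv ℝ (fun y => u (ι y)) y = (fderiv ℝ u (ι y)).comp ι := h2
  rw [h3]
  rfl

theorem hess_comp {u : E → ℝ} (hu : ContDiff ℝ 2 u) (ι : G →L[ℝ] E) (y w w' : G) :
    fderiv ℝ (fderiv ℝ (fun y => u (ι y))) y w w' =
      fderiv ℝ (fderiv ℝ u) (ι y) (ι w) (ι w') := by
  have hv : ContDiff ℝ 2 (fun y => u (ι y)) := hu.comp ι.contDiff
  have h1 := prof2 (e := w) hv y w' 0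
  have h2 := prof2 (e := ι w) hu (ι y) (ι w') 0
  have h3 : (fun s : ℝ => fderiv ℝ (fun y => u (ι y)) (y + s • w) w') =
      fun s : ℝ => fderiv ℝ u (ι y + s • ι w) (ι w') := by
    funext s
    rw [fd_comp hu, map_add, map_smul]
  rw [h3] at h1
  have h4 := h1.unique h2
  simpa using h4

end

variable {n : ℕ}

/-- reduction of the dimension: a bounded solution on `R^(n+1)` that is constant along `a` comes
from a solution on `R^n` -/
theorem reduce {u : EuclideanSpace ℝ (Fin (n + 1)) → ℝ} (hu : ContDiff ℝ 2 u)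
    {f : ℝ → ℝ} (hf : ∀ x, Δ u x = f (u x)) {e a : EuclideanSpace ℝ (Fin (n + 1))}
    (he : ∀ x, 0 < fderiv ℝ u x e) (ha : a ≠ 0)
    (hc : ∀ (x : EuclideanSpace ℝ (Fin (n + 1))) (s : ℝ), u (x + s • a) = u x) :
    ∃ v : EuclideanSpace ℝ (Fin n) → ℝ, ContDiff ℝ 2 v ∧ (∀ y, Δ v y = f (v y)) ∧
      (∃ e' : EuclideanSpace ℝ (Fin n), ∀ y, 0 < fderiv ℝ v y e') ∧
      (∀ y, ∃ x, v y = u x) ∧
      ((∃ (e' : EuclideanSpace ℝ (Fin n)) (g : ℝ → ℝ), ‖e'‖ = 1 ∧ ∀ y, v y = g ⟪e', y⟫) →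
        ∃ (e' : EuclideanSpace ℝ (Fin (n + 1))) (g : ℝ → ℝ), ‖e'‖ = 1 ∧
          ∀ x, u x = g ⟪e', x⟫) := by
  have hna : ‖a‖ ≠ 0 := norm_ne_zero_iff.2 ha
  obtain ⟨b, hb⟩ := Orthonormal.exists_orthonormalBasis_extension_of_card_eq (𝕜 := ℝ)
    (E := EuclideanSpace ℝ (Fin (n + 1))) (ι := Fin (n + 1)) (by simp)
    (v := fun _ => (‖a‖)⁻¹ • a) (s := {0}) (by
      constructor
      · intro i
        simp only [Set.restrict_apply]
        rw [norm_smul, norm_inv, norm_norm, inv_mul_cancel₀ hna]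
      · intro i j hij
        exact absurd (Subtype.ext (i.2.trans j.2.symm)) hij)
  have hb0 : b 0 = (‖a‖)⁻¹ • a := hb 0 rfl
  set ι : EuclideanSpace ℝ (Fin n) →L[ℝ] EuclideanSpace ℝ (Fin (n + 1)) :=
    ∑ i : Fin n, (EuclideanSpace.proj i : EuclideanSpace ℝ (Fin n) →L[ℝ] ℝ).smulRight
      (b i.succ) with hι
  have hιa : ∀ y, ι y = ∑ i : Fin n, y i • b i.succ := by
    intro y
    simp [hι, ContinuousLinearMap.sum_apply]
  have hιb : ∀ i : Fin n, ι (EuclideanSpace.basisFun (Fin n) ℝ i) = b i.succ := by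
    intro i
    rw [hιa]
    simp [EuclideanSpace.basisFun_apply, Finset.sum_ite_eq]
  set π : EuclideanSpace ℝ (Fin (n + 1)) → EuclideanSpace ℝ (Fin n) :=
    fun x => WithLp.toLp 2 fun i => ⟪b i.succ, x⟫ with hπ
  have hdec : ∀ x, x = ⟪b 0, x⟫ • b 0 + ι (π x) := by
    intro x
    conv_lhs => rw [← b.sum_repr' x]
    rw [Fin.sum_univ_succ, hιa]
  have hinnι : ∀ y x, ⟪ι y, x⟫ = ⟪y, π x⟫ := by
    intro y x
    rw [hιa, sum_inner]
    simp only [inner_smul_left, PiLp.inner_apply, hπ]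
    refine Finset.sum_congr rfl fun i _ => ?_
    simp [mul_comm]
  have hπι : ∀ y, π (ι y) = y := by
    intro y
    ext i
    simp only [hπ, hιa, inner_sum, inner_smul_right]
    rw [Finset.sum_eq_single i]
    · rw [b.inner_eq_ite]; simp
    · intro j _ hj
      rw [b.inner_eq_ite, if_neg (fun h => hj (Fin.succ_injective _ h).symm), mul_zero]
    · intro h; exact absurd (Finset.mem_univ i) h
  have hfa : ∀ x, fderiv ℝ u x a = 0 := by
    intro x
    have h1 := prof (e := a) hu x 0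
    have h2 : (fun s : ℝ => u (x + s • a)) = fun _ => u x := funext fun s => hc x s
    rw [h2] at h1
    have h3 := h1.unique (hasDerivAt_const (0 : ℝ) (u x))
    simpa using h3
  have hfb0 : ∀ x, fderiv ℝ u x (b 0) = 0 := by
    intro x
    rw [hb0, map_smul, hfa, smul_zero]
  have hu0 : ∀ x, u x = u (ι (π x)) := by
    intro x
    conv_lhs => rw [hdec x, hb0, smul_smul, add_comm]
    exact hc _ _
  refine ⟨fun y => u (ι y), hu.comp ι.contDiff, ?_, ⟨π e, ?_⟩, fun y => ⟨ι y, rfl⟩, ?_⟩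
  · intro y
    rw [← hf (ι y), laplacian_eq_iteratedFDeriv_orthonormalBasis _ b,
      laplacian_eq_iteratedFDeriv_orthonormalBasis _ (EuclideanSpace.basisFun (Fin n) ℝ)]
    simp only [iteratedFDeriv_two_apply, Matrix.cons_val_zero, Matrix.cons_val_one]
    rw [Fin.sum_univ_succ]
    have h0 : fderiv ℝ (fderiv ℝ u) (ι y) (b 0) (b 0) = 0 := by
      have h1 := prof2 (e := b 0) hu (ι y) (b 0) 0
      have h2 : (fun s : ℝ => fderiv ℝ u (ι y + s • b 0) (b 0)) = fun _ => (0 : ℝ) :=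
        funext fun s => hfb0 _
      rw [h2] at h1
      have h3 := h1.unique (hasDerivAt_const (0 : ℝ) (0 : ℝ))
      simpa using h3
    rw [h0, zero_add]
    refine Finset.sum_congr rfl fun i _ => ?_
    rw [hess_comp hu, hιb]
  · intro y
    rw [fd_comp hu]
    have h1 := he (ι y)
    rw [hdec e, map_add, map_smul, hfb0, smul_zero, zero_add] at h1
    exact h1
  · rintro ⟨e', g, he', hg⟩
    refine ⟨ι e', g, ?_, fun x => ?_⟩
    · have h1 : ⟪ι e', ι e'⟫ = 1 := by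
        rw [hinnι, hπι, real_inner_self_eq_norm_sq, he']
        norm_num
      rw [real_inner_self_eq_norm_sq] at h1
      have h2 : ‖ι e'‖ ^ 2 = 1 ^ 2 := by rw [h1]; norm_num
      exact (sq_eq_sq₀ (norm_nonneg _) zero_le_one).1 h2
    · rw [hu0 x, hinnι]
      exact hg (π x)

end Vale.Agent.P134
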