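import Vale.Agent.P134.Trans

open Set Filter Topology
open scoped InnerProductSpace RealInnerProductSpace

namespace Vale.Agent.P134

variable {E : Type*} [NormedAddCommGroup E] [InnerProductSpace ℝ E]

theorem straight {V : E → E} (hV : ContDiff ℝ 1 V)
    (hsymm : ∀ x v w : E, ⟪fderiv ℝ V x v, w⟫ = ⟪fderiv ℝ V x w, v⟫) {ρ : ℝ}
    (hρ : ∀ x, ‖V x‖ = ρ) (x : E) (ε : ℝ) (t : ℝ) (ht : 0 ≤ t) :
    V (x + (ε * t) • V x) = V x := by
  have hVd : Differentiable ℝ V := hV.differentiable (by norm_num)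
  have hzero : ∀ y, fderiv ℝ V y (V y) = 0 := by
    intro y
    refine ext_inner_right ℝ fun w => ?_
    rw [hsymm, inner_zero_left]
    have h1 := ((hVd y).hasFDerivAt.inner ℝ (hVd y).hasFDerivAt)
    have h2 : (fun y => ⟪V y, V y⟫) = fun _ => ρ ^ 2 := by
      funext z
      rw [real_inner_self_eq_norm_sq, hρ]
    rw [h2] at h1
    have h3 := h1.unique (hasFDerivAt_const (ρ ^ 2) y)
    have h4 := congrArg (fun L : E →L[ℝ] ℝ => L w) h3
    simp only [ContinuousLinearMap.comp_apply, ContinuousLinearMap.prod_apply,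
      fderivInnerCLM_apply] at h4
    rw [real_inner_comm (fderiv ℝ V y w) (V y)] at h4
    have h5 : ⟪fderiv ℝ V y w, V y⟫ + ⟪fderiv ℝ V y w, V y⟫ = 0 := by
      simpa using h4
    linarith
  set v := V x with hv
  set ℓ : ℝ → E := fun τ => x + (ε * τ) • v with hℓ
  have hℓd : ∀ τ, HasDerivAt ℓ (ε • v) τ := by
    intro τ
    have h1 : HasDerivAt (fun τ : ℝ => ε * τ) ε τ := by
      simpa using (hasDerivAt_id τ).const_mul ε
    exact (h1.smul_const v).const_add x
  have hℓc : Continuous ℓ := continuous_iff_continuousAt.2 fun τ => (hℓd τ).continuousAt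
  set f : ℝ → E := fun τ => V (ℓ τ) - v with hf
  have hfd : ∀ τ, HasDerivAt f (fderiv ℝ V (ℓ τ) (ε • v)) τ := by
    intro τ
    exact ((hVd (ℓ τ)).hasFDerivAt.comp_hasDerivAt τ (hℓd τ)).sub_const v
  have hDc : Continuous fun τ => fderiv ℝ V (ℓ τ) :=
    (hV.continuous_fderiv (by norm_num)).comp hℓc
  obtain ⟨M, hM⟩ := isCompact_Icc.exists_bound_of_continuousOn (s := Icc (0 : ℝ) t)
    hDc.continuousOn
  have key := eq_zero_of_abs_deriv_le_mul_abs_self_of_eq_zero_right (f := f)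
    (f' := fun τ => fderiv ℝ V (ℓ τ) (ε • v)) (K := |ε| * M) (a := 0) (b := t)
    (fun τ _ => (hfd τ).continuousAt.continuousWithinAt)
    (fun τ _ => (hfd τ).hasDerivWithinAt)
    (by simp [hf, hℓ, hv])
    (by
      intro τ hτ
      have h1 : fderiv ℝ V (ℓ τ) (ε • v) = -(ε • fderiv ℝ V (ℓ τ) (f τ)) := by
        have : f τ = V (ℓ τ) - v := rfl
        rw [this, map_sub, hzero, map_smul, zero_sub, smul_neg, neg_neg]
      rw [h1, norm_neg, norm_smul, Real.norm_eq_abs, mul_assoc]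
      refine mul_le_mul_of_nonneg_left ?_ (abs_nonneg _)
      refine ((fderiv ℝ V (ℓ τ)).le_opNorm _).trans ?_
      exact mul_le_mul_of_nonneg_right (hM τ ⟨hτ.1, hτ.2.le⟩) (norm_nonneg _))
    t ⟨ht, le_rfl⟩
  exact sub_eq_zero.1 key

theorem const_of_cocycle {V : E → E} (hV : ContDiff ℝ 1 V)
    (hsymm : ∀ x v w : E, ⟪fderiv ℝ V x v, w⟫ = ⟪fderiv ℝ V x w, v⟫) {ρ : ℝ}
    (hρ : ∀ x, ‖V x‖ = ρ)
    (hcoc : ∀ x y z, cc (fun x => innerSL ℝ (V x)) x z =
      cc (fun x => innerSL ℝ (V x)) x y + cc (fun x => innerSL ℝ (V x)) y z) (x y : E) :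
    V x = V y := by
  have hρ0 : 0 ≤ ρ := by rw [← hρ x]; exact norm_nonneg _
  set c := cc (fun x => innerSL ℝ (V x)) with hc
  have hbound : ∀ x y, |c x y| ≤ ρ * ‖y - x‖ := by
    intro x y
    have := intervalIntegral.norm_integral_le_of_norm_le_const (a := (0 : ℝ)) (b := 1)
      (f := fun σ : ℝ => (innerSL ℝ (V (x + σ • (y - x)))) (y - x)) (C := ρ * ‖y - x‖)
      (by
        intro σ _
        rw [innerSL_apply_apply]
        refine (norm_inner_le_norm _ _).trans ?_
        rw [hρ])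
    simpa [hc, cc] using this
  have hfwd : ∀ x (t : ℝ), 0 ≤ t → c x (x + t • V x) = t * ρ ^ 2 := by
    intro x t ht
    have h1 : ∀ σ ∈ uIcc (0 : ℝ) 1,
        (innerSL ℝ (V (x + σ • (x + t • V x - x)))) (x + t • V x - x) = t * ρ ^ 2 := by
      intro σ hσ
      rw [uIcc_of_le zero_le_one] at hσ
      have h2 := straight hV hsymm hρ x 1 (σ * t) (mul_nonneg hσ.1 ht)
      rw [one_mul, mul_smul] at h2
      rw [innerSL_apply_apply, add_sub_cancel_left, h2, inner_smul_right,
        real_inner_self_eq_norm_sq, hρ]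
    simp only [hc, cc]
    rw [intervalIntegral.integral_congr h1]
    simp
  have hbwd : ∀ y (t : ℝ), 0 ≤ t → c (y - t • V y) y = t * ρ ^ 2 := by
    intro y t ht
    have h1 : ∀ σ ∈ uIcc (0 : ℝ) 1,
        (innerSL ℝ (V (y - t • V y + σ • (y - (y - t • V y))))) (y - (y - t • V y)) =
          t * ρ ^ 2 := by
      intro σ hσ
      rw [uIcc_of_le zero_le_one] at hσ
      have h2 := straight hV hsymm hρ y (-1) ((1 - σ) * t)
        (mul_nonneg (by linarith [hσ.2]) ht)
      have h3 : y - t • V y + σ • (y - (y - t • V y)) = y + (-1 * ((1 - σ) * t)) • V y := by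
        rw [sub_sub_cancel]
        module
      rw [innerSL_apply_apply, h3, h2, sub_sub_cancel, inner_smul_right,
        real_inner_self_eq_norm_sq, hρ]
    simp only [hc, cc]
    rw [intervalIntegral.integral_congr h1]
    simp
  have hmain : ∀ t : ℝ, 0 ≤ t →
      2 * t * ρ ^ 2 + c y x ≤ ρ * ‖x - y‖ + t * (ρ * ‖V x + V y‖) := by
    intro t ht
    have h1 : c (y - t • V y) (x + t • V x) = t * ρ ^ 2 + c y x + t * ρ ^ 2 := by
      rw [hcoc _ y, hcoc y x, hbwd y t ht, hfwd x t ht]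
      ring
    have h2 := (le_abs_self _).trans (hbound (y - t • V y) (x + t • V x))
    rw [h1] at h2
    have h3 : ‖x + t • V x - (y - t • V y)‖ ≤ ‖x - y‖ + t * ‖V x + V y‖ := by
      have : x + t • V x - (y - t • V y) = (x - y) + t • (V x + V y) := by module
      rw [this]
      refine (norm_add_le _ _).trans ?_
      rw [norm_smul, Real.norm_eq_abs, abs_of_nonneg ht]
    have h4 := mul_le_mul_of_nonneg_left h3 hρ0
    linarith
  have hge : 2 * ρ ^ 2 ≤ ρ * ‖V x + V y‖ := by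
    by_contra hcon
    push Not at hcon
    set δ := 2 * ρ ^ 2 - ρ * ‖V x + V y‖ with hδ
    have hδ0 : 0 < δ := by linarith
    set A := ρ * ‖x - y‖ - c y x with hA
    have h1 := hmain ((|A| + 1) / δ) (by positivity)
    have h2 : (|A| + 1) / δ * δ = |A| + 1 := div_mul_cancel₀ _ hδ0.ne'
    have h3 := le_abs_self A
    nlinarith
  rcases hρ0.eq_or_lt with h0 | h0
  · have hx : V x = 0 := norm_eq_zero.1 (by rw [hρ, ← h0])
    have hy : V y = 0 := norm_eq_zero.1 (by rw [hρ, ← h0])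
    rw [hx, hy]
  · have h1 : 2 * ρ ≤ ‖V x + V y‖ := by
      have : ρ * (2 * ρ) ≤ ρ * ‖V x + V y‖ := by linarith
      exact le_of_mul_le_mul_left this h0
    have h2 := parallelogram_law_with_norm ℝ (V x) (V y)
    rw [hρ, hρ] at h2
    have h3 : ‖V x - V y‖ = 0 := by
      have h4 : ‖V x - V y‖ * ‖V x - V y‖ ≤ 0 := by nlinarith [norm_nonneg (V x + V y)]
      have h5 := mul_self_nonneg ‖V x - V y‖
      exact mul_self_eq_zero.1 (le_antisymm h4 h5)
    exact sub_eq_zero.1 (norm_eq_zero.1 h3)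

end Vale.Agent.P134
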