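import Vale.Agent.P134.Main

open Set Filter Topology
open scoped InnerProductSpace RealInnerProductSpace

namespace Vale.Agent.P134

variable {E : Type*} [NormedAddCommGroup E] [InnerProductSpace ℝ E]

/-- the height difference between the profiles over `x` and `y` -/
noncomputable def cc (om : E → E →L[ℝ] ℝ) (x y : E) : ℝ :=
  ∫ σ in (0 : ℝ)..1, om (x + σ • (y - x)) (y - x)

theorem translate {u : E → ℝ} {om : E → E →L[ℝ] ℝ} {p : E → ℝ} {e : E}
    (hu : Differentiable ℝ u) (hom : Continuous om)
    (hinv : ∀ x (s : ℝ), om (x + s • e) = om x) (hone : ∀ x, om x e = 1)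
    (hp : ∀ x, fderiv ℝ u x = p x • om x) (x y : E) (s : ℝ) :
    u (y + s • e) = u (x + (s + cc om x y) • e) := by
  set d := y - x with hd
  set k : ℝ → ℝ := fun σ => om (x + σ • d) d with hk
  have hkc : Continuous k := by
    have : Continuous fun σ : ℝ => x + σ • d := by fun_prop
    exact (hom.comp this).clm_apply continuous_const
  set I : ℝ → ℝ := fun τ => ∫ σ in (0 : ℝ)..τ, k σ with hI
  have hId : ∀ τ, HasDerivAt I (k τ) τ := fun τ =>
    intervalIntegral.integral_hasDerivAt_right (hkc.intervalIntegrable _ _)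
      (hkc.stronglyMeasurableAtFilter _ _) hkc.continuousAt
  set s' : ℝ := s + cc om x y with hs'
  set γ : ℝ → E := fun τ => x + τ • d + (s' - I τ) • e with hγ
  have hγd : ∀ τ, HasDerivAt γ (d + (-(k τ)) • e) τ := by
    intro τ
    have h1 : HasDerivAt (fun τ : ℝ => x + τ • d) d τ := by
      simpa using ((hasDerivAt_id τ).smul_const d).const_add x
    have h2 : HasDerivAt (fun τ : ℝ => (s' - I τ) • e) ((-(k τ)) • e) τ := by
      have h3 : HasDerivAt (fun τ : ℝ => s' - I τ) (-(k τ)) τ := by
        simpa using (hId τ).const_sub s'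
      exact h3.smul_const e
    exact h1.add h2
  have hconst : ∀ τ, HasDerivAt (fun τ => u (γ τ)) 0 τ := by
    intro τ
    have h1 := (hu (γ τ)).hasFDerivAt.comp_hasDerivAt τ (hγd τ)
    have h2 : fderiv ℝ u (γ τ) (d + (-(k τ)) • e) = 0 := by
      rw [hp, hγ]
      simp only
      rw [hinv]
      simp only [smul_apply, map_add, map_smul, hone]
      simp [hk]
      ring
    rw [h2] at h1
    exact h1
  have h0 : u (γ 0) = u (γ 1) :=
    is_const_of_deriv_eq_zero (fun τ => (hconst τ).differentiableAt)
      (fun τ => (hconst τ).deriv) 0 1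
  have g0 : γ 0 = x + s' • e := by
    simp [hγ, hI]
  have g1 : γ 1 = y + s • e := by
    have : I 1 = cc om x y := rfl
    simp only [hγ, this, hs', one_smul, hd]
    rw [add_sub_cancel_right, add_sub_cancel]
  rw [g0, g1] at h0
  exact h0.symm

end Vale.Agent.P134
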